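import Vale.Agent.P190.Main

namespace Vale.Agent.Results.P190.NoSmallCM

universe u

theorem result : ∃ (R : Type) (_ : CommRing R) (_ : IsLocalRing R) (_ : IsNoetherianRing R)
    (_ : IsDomain R) (_ : IsAdicComplete (IsLocalRing.maximalIdeal R) R),
    ∀ (M : Type u) [AddCommGroup M] [Module R M] [Module.Finite R M] [Nontrivial M] (rs : List R),
      (∀ r ∈ rs, r ∈ IsLocalRing.maximalIdeal R) → RingTheory.Sequence.IsWeaklyRegular M rs →
        (rs.length : WithBot ℕ∞) < ringKrullDim R := by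
  obtain ⟨R, i1, i2, i3, i4, i5, hdim, hR⟩ := Vale.Agent.P190.exists_no_mcm
  refine ⟨R, i1, i2, i3, i4, i5, ?_⟩
  intro M _ _ _ _ rs hrs hreg
  by_contra hlt
  have h3 : 3 ≤ rs.length := by
    have := hdim.trans (not_lt.1 hlt)
    exact_mod_cast this
  obtain ⟨N, f, hf⟩ := Module.Finite.exists_fin' R M
  let e := f.quotKerEquivOfSurjective hf
  haveI : Nontrivial ((Fin N → R) ⧸ LinearMap.ker f) := e.toEquiv.nontrivial
  have hreg' := (e.isWeaklyRegular_congr rs).2 hreg
  match rs, h3, hrs, hreg' with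
  | f₁ :: f₂ :: f₃ :: tl, _, hrs, hreg' =>
    refine hR ((Fin N → R) ⧸ LinearMap.ker f) f₁ f₂ f₃ (hrs _ (by simp)) (hrs _ (by simp))
      (hrs _ (by simp)) ?_
    exact ((RingTheory.Sequence.isWeaklyRegular_append_iff _ [f₁, f₂, f₃] tl).1 hreg').1

end Vale.Agent.Results.P190.NoSmallCM
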